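import Vale.Agent.P200.LPP

namespace Vale.Agent.Results.P200.LexPlusSquares

open MvPolynomial Vale.Agent.P200

/-- The lex-plus-powers conjecture for regular sequences of quadrics: any field, `1 ≤ c ≤ n`. -/
theorem result (K : Type*) [Field K] (n c : ℕ) (hc : 1 ≤ c) (hcn : c ≤ n)
    (f : Fin c → MvPolynomial (Fin n) K) (hf : ∀ i, (f i).IsHomogeneous 2)
    (hreg : ∀ i g, f i * g ∈ Ideal.span (f '' {j | j < i}) → g ∈ Ideal.span (f '' {j | j < i}))
    (I : Ideal (MvPolynomial (Fin n) K))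
    (_hI : ∀ p ∈ I, ∀ d, homogeneousComponent d p ∈ I) (hfI : ∀ i, f i ∈ I) :
    ∃ J : Ideal (MvPolynomial (Fin n) K),
      J.restrictScalars K = (⨆ d, lexPart I c d) ∧ ∀ p j : ℕ, betti I p j ≤ betti J p j :=
  lpp_quadrics hc hcn f (fun i => by rw [Hm_eq]; exact hf i) hreg I hfI

end Vale.Agent.Results.P200.LexPlusSquares
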