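import Vale.Agent.P200.Main

namespace Vale.Agent.Results.P200.Quadrics

open MvPolynomial

/-- Eisenbud-Green-Harris for regular sequences of quadrics: any field, any `1 ≤ c ≤ n`. -/
theorem result (K : Type*) [Field K] (n c : ℕ) (hc : 1 ≤ c) (hcn : c ≤ n)
    (f : Fin c → MvPolynomial (Fin n) K) (hf : ∀ i, (f i).IsHomogeneous 2)
    (hreg : ∀ i g, f i * g ∈ Ideal.span (f '' {j | j < i}) → g ∈ Ideal.span (f '' {j | j < i}))
    (I : Ideal (MvPolynomial (Fin n) K))
    (_hI : ∀ p ∈ I, ∀ d, homogeneousComponent d p ∈ I) (hfI : ∀ i, f i ∈ I) :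
    ∃ L : Ideal (MvPolynomial (Fin n) K),
      (∃ A : Set (Fin n →₀ ℕ), L = Ideal.span ((fun s => monomial s (1 : K)) '' A)) ∧
      (∀ i : Fin c, (X (Fin.castLE hcn i) : MvPolynomial (Fin n) K) ^ 2 ∈ L) ∧
      ∀ d : ℕ, Module.finrank K
          (L.restrictScalars K ⊓ homogeneousSubmodule (Fin n) K d :
            Submodule K (MvPolynomial (Fin n) K)) =
        Module.finrank K
          (I.restrictScalars K ⊓ homogeneousSubmodule (Fin n) K d :
            Submodule K (MvPolynomial (Fin n) K)) := by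
  obtain ⟨A, h1, h2⟩ := Vale.Agent.P200.egh_quadrics hc hcn f
    (fun i => by rw [Vale.Agent.P200.Hm_eq]; exact hf i) hreg I hfI
  refine ⟨_, ⟨A, rfl⟩, fun i => ?_, fun d => ?_⟩
  · rw [X_pow_eq_monomial]
    exact Ideal.subset_span ⟨_, h1 i, rfl⟩
  · rw [← Vale.Agent.P200.Hm_eq]
    exact h2 d

end Vale.Agent.Results.P200.Quadrics
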